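import Vale.Agent.P309.L2

open MeasureTheory

/-- (1) For every `C > 0` there are `c', ε₀ > 0` and `d₀` such that for `d ≥ d₀`, `ε ≤ ε₀` every
learner with at most `2 ^ M` states, `M ≤ C d ^ 2`, that succeeds at accuracy `ε` has horizon
`T ≥ c' d log (1 / ε)`.
(2) If `M ≥ d log₂ (60 d / ε)`, a deterministic learner succeeds with `T ≤ 23 d log (1 / ε)`.
(3) If `M < (d - 1) log₂ (1 / ε) - (2 d + 2)`, no learner succeeds, whatever its horizon. -/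
theorem Vale.Agent.Results.P309.LeastHorizon.result :
    (∀ C : ℝ, 0 < C → ∃ c' ε₀ : ℝ, 0 < c' ∧ 0 < ε₀ ∧ ∃ d₀ : ℕ, ∀ d : ℕ, d₀ ≤ d →
      ∀ ε : ℝ, 0 < ε → ε ≤ ε₀ → ∀ M : ℝ, M ≤ C * (d : ℝ) ^ 2 →
      ∀ (σ Ξ : Type) [Fintype σ] [MeasurableSpace Ξ] (ρ : Measure Ξ) [IsProbabilityMeasure ρ],
      (Fintype.card σ : ℝ) ≤ 2 ^ M → ∀ (A : _root_.P309.Learner d σ Ξ) (T : ℕ),
        A.Succeeds ρ T ε → c' * d * Real.log (1 / ε) ≤ T) ∧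
    (∀ d : ℕ, 2 ≤ d → ∀ ε : ℝ, 0 < ε → ε ≤ 1 / 2 →
      ∀ M : ℝ, d * Real.logb 2 (60 * d / ε) ≤ M →
      ∃ (K : ℕ) (A : _root_.P309.Learner d (Fin K) Unit) (T : ℕ), (K : ℝ) ≤ 2 ^ M ∧
        (T : ℝ) ≤ 23 * d * Real.log (1 / ε) ∧ A.Succeeds (Measure.dirac ()) T ε) ∧
    (∀ d : ℕ, 1 ≤ d → ∀ ε : ℝ, 0 < ε →
      ∀ M : ℝ, M < (d - 1) * Real.logb 2 (1 / ε) - (2 * d + 2) →
      ∀ (σ Ξ : Type) [Fintype σ] [MeasurableSpace Ξ] (ρ : Measure Ξ) [IsProbabilityMeasure ρ],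
      (Fintype.card σ : ℝ) ≤ 2 ^ M → ∀ (A : _root_.P309.Learner d σ Ξ) (T : ℕ),
        ¬ A.Succeeds ρ T ε) :=
  ⟨_root_.P309.main,
    fun _ hd _ hε hε2 _ hM => _root_.P309.upper_bits hd hε hε2 hM,
    fun _ hd _ hε _ hM _ _ _ _ ρ _ hcard A T =>
      _root_.P309.impossible hd hε hM ρ hcard A T⟩
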